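import Vale.Agent.Lib.P116.Reduction

/-!
# P116: point components of the complement can be ignored

Let `G` be a domain in the Riemann sphere and `A` a closed subset of its complement such that
every point of the complement of `G` outside `A` is a connected component of the complement.
If the complement of `A` is conformally equivalent to a circle domain, then so is `G`.
-/

namespace Vale.Agent.Results.P116.PointComponentReduction

open Vale.Agent.Lib.P116

theorem result (G A : Set Sphere) (hG : IsDomain G) (hA : IsClosed A) (hAG : A ⊆ Gᶜ)
    (hpts : ∀ p ∈ Gᶜ, p ∉ A → connectedComponentIn Gᶜ p = {p})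
    (hKA : ∃ Ω₀ : Set Sphere, IsCircleDomain Ω₀ ∧ ConfEquiv Aᶜ Ω₀) :
    ∃ Ω : Set Sphere, IsCircleDomain Ω ∧ ConfEquiv G Ω :=
  koebe_reduction G A hG hA hAG hpts hKA

end Vale.Agent.Results.P116.PointComponentReduction
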