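import Vale.Agent.Lib.P116.Dense

/-!
# P116: reduction of Koebe's conjecture to domains with dense non-degenerate components

If every domain whose complement is the closure of the union of its non-degenerate
complementary components is conformally equivalent to a circle domain, then every domain
in the Riemann sphere is conformally equivalent to a circle domain.
-/

namespace Vale.Agent.Results.P116.ReductionToDense

open Vale.Agent.Lib.P116

theorem result
    (h : ∀ D : Set Sphere, IsDomain D → Dᶜ = closure (nondegPart D) →
      ∃ Ω : Set Sphere, IsCircleDomain Ω ∧ ConfEquiv D Ω) :
    ∀ G : Set Sphere, IsDomain G → ∃ Ω : Set Sphere, IsCircleDomain Ω ∧ ConfEquiv G Ω :=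
  fun G hG => koebe_reduction_dense h G hG

end Vale.Agent.Results.P116.ReductionToDense
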