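import Vale.Agent.Lib.P116.Slit

/-!
# P116: Koebe's conjecture for domains with one segment component and point components

Every domain of the Riemann sphere whose complement consists of the segment `[-2, 2]` and
of points that are connected components of the complement is conformally equivalent to a
circle domain.
-/

namespace Vale.Agent.Results.P116.SlitDomains

open Vale.Agent.Lib.P116

theorem result (G : Set Sphere) (hG : IsDomain G) (hseg : seg ⊆ Gᶜ)
    (hpts : ∀ p ∈ Gᶜ, p ∉ seg → connectedComponentIn Gᶜ p = {p}) :
    ∃ Ω : Set Sphere, IsCircleDomain Ω ∧ ConfEquiv G Ω :=
  slit_theorem G hG hseg hpts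

end Vale.Agent.Results.P116.SlitDomains
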